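import Vale.Agent.Lib.P063.Width

open Finset

namespace Vale.Agent.Results.P063.WitnessWidthLower

open Vale.Agent.Lib.P063

/-- For every `r`-uniform hypergraph property `P` on `n` vertices that is increasing and
nontrivial and all of whose members contain a member with at most `m` edges,
`w_ε(P) ≥ p_ε(P) · log((1-ε)/ε) / m`. -/
theorem result (n r : ℕ) (P : Finset (Finset (Edge n r))) (_hP : IsHypergraphProperty P)
    (hinc : Increasing P) (hnt : NontrivialFamily P)
    (m : ℕ) (hm : 1 ≤ m) (hwit : ∀ H ∈ P, ∃ W ∈ P, W ⊆ H ∧ W.card ≤ m)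
    (ε : ℝ) (hε0 : 0 < ε) (hε : ε < 1 / 2) :
    pcrit ε P * Real.log ((1 - ε) / ε) / m ≤ width ε P :=
  width_ge P hinc hnt m hm hwit ε hε0 hε

end Vale.Agent.Results.P063.WitnessWidthLower
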