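import Vale.Agent.Results.P063.HypergraphWidthLower
import Vale.Agent.Results.P063.WitnessWidthLower

open Finset

namespace Vale.Agent.Results.P063.Combined

open Vale.Agent.Lib.P063

/-- (1) For every uniformity `r ≥ 2` and `0 < ε < 1/2` there is `c > 0` such that for all large `n`
some nontrivial increasing `r`-uniform hypergraph property on `n` vertices has threshold width at
least `c (log n)^{-r/(r-1)}`.
(2) Every nontrivial increasing `r`-uniform hypergraph property all of whose members contain a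
member with at most `m` edges has `w_ε(P) ≥ p_ε(P) log((1-ε)/ε) / m`. -/
theorem result :
    (∀ r : ℕ, 2 ≤ r → ∀ ε : ℝ, 0 < ε → ε < 1 / 2 →
      ∃ c : ℝ, 0 < c ∧ ∃ n0 : ℕ, ∀ n : ℕ, n0 ≤ n → ∃ P : Finset (Finset (Edge n r)),
        IsHypergraphProperty P ∧ Increasing P ∧ NontrivialFamily P ∧
        c * (Real.log n) ^ (-(r:ℝ) / ((r:ℝ) - 1)) ≤ width ε P) ∧
    (∀ (n r : ℕ) (P : Finset (Finset (Edge n r))), IsHypergraphProperty P →
      Increasing P → NontrivialFamily P →
      ∀ m : ℕ, 1 ≤ m → (∀ H ∈ P, ∃ W ∈ P, W ⊆ H ∧ W.card ≤ m) →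
      ∀ ε : ℝ, 0 < ε → ε < 1 / 2 →
        pcrit ε P * Real.log ((1 - ε) / ε) / m ≤ width ε P) :=
  ⟨fun r hr ε h0 h1 => HypergraphWidthLower.result r hr ε h0 h1,
    fun n r P hP hi hn m hm hw ε h0 h1 =>
      WitnessWidthLower.result n r P hP hi hn m hm hw ε h0 h1⟩

end Vale.Agent.Results.P063.Combined
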