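import Vale.Agent.Lib.P063.Param

open Finset

namespace Vale.Agent.Results.P063.HypergraphWidthLower

open Vale.Agent.Lib.P063

/-- For every uniformity `r ≥ 2` and every `0 < ε < 1/2` there is `c > 0` such that for all large
`n` some nontrivial increasing `r`-uniform hypergraph property on `n` vertices has threshold width
at least `c (log n)^{-r/(r-1)}`. -/
theorem result (r : ℕ) (hr : 2 ≤ r) (ε : ℝ) (hε0 : 0 < ε) (hε : ε < 1 / 2) :
    ∃ c : ℝ, 0 < c ∧ ∃ n0 : ℕ, ∀ n : ℕ, n0 ≤ n → ∃ P : Finset (Finset (Edge n r)),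
      IsHypergraphProperty P ∧ Increasing P ∧ NontrivialFamily P ∧
      c * (Real.log n) ^ (-(r:ℝ) / ((r:ℝ) - 1)) ≤ width ε P := by
  set B : ℝ := 2 ^ (r + 2) * (r.factorial : ℝ) with hB
  have hBpos : 0 < B := by positivity
  set L := Real.log ((1 - ε) / ε) with hL
  have hLpos : 0 < L := by
    apply Real.log_pos
    rw [lt_div_iff₀ hε0]
    linarith
  set s := r - 1 with hs
  have hs1 : 1 ≤ s := by omega
  have hscast : ((s : ℕ) : ℝ) = (r:ℝ) - 1 := by
    rw [hs, Nat.cast_sub (by omega)]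
    simp
  have hspos : (0:ℝ) < (s:ℝ) := by exact_mod_cast hs1
  set q : ℝ := (r:ℝ) / (s:ℝ) with hq
  have hqpos : 0 < q := by
    have : (0:ℝ) < r := by exact_mod_cast (by omega : 0 < r)
    positivity
  set A : ℝ := (2 ^ s * B) ^ q with hA
  have hApos : 0 < A := by positivity
  refine ⟨L / (2 * A), by positivity, ?_⟩
  -- eventual conditions
  have hlogtop : Filter.Tendsto (fun n : ℕ => Real.log (n:ℝ)) Filter.atTop Filter.atTop :=
    Real.tendsto_log_atTop.comp tendsto_natCast_atTop_atTop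
  have ev1 : ∀ᶠ n : ℕ in Filter.atTop, ((2 * r : ℕ) : ℝ) ^ s < B * Real.log n := by
    have := hlogtop.eventually_gt_atTop (((2 * r : ℕ) : ℝ) ^ s / B)
    filter_upwards [this] with n hn
    rw [div_lt_iff₀ hBpos] at hn
    linarith
  have ev2 : ∀ᶠ n : ℕ in Filter.atTop, 2 ^ s * B * Real.log n ≤ n := by
    have hc : (0:ℝ) < 1 / (2 ^ s * B) := by positivity
    have h := (Real.isLittleO_log_id_atTop.def hc)
    have h' := tendsto_natCast_atTop_atTop (R := ℝ) |>.eventually h
    filter_upwards [h', Filter.eventually_ge_atTop 1] with n hn hn1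
    have hn0 : (0:ℝ) ≤ n := by positivity
    have hlog0 : 0 ≤ Real.log n := Real.log_natCast_nonneg n
    simp only [id, Real.norm_eq_abs, abs_of_nonneg hn0, abs_of_nonneg hlog0] at hn
    have hpos : (0:ℝ) < 2 ^ s * B := by positivity
    calc 2 ^ s * B * Real.log n ≤ 2 ^ s * B * (1 / (2 ^ s * B) * n) :=
          mul_le_mul_of_nonneg_left hn hpos.le
      _ = n := by field_simp
  have ev3 : ∀ᶠ n : ℕ in Filter.atTop, 1 / ε < n :=
    tendsto_natCast_atTop_atTop.eventually_gt_atTop (1 / ε)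
  obtain ⟨n0, hn0⟩ := Filter.eventually_atTop.mp
    (ev1.and (ev2.and (ev3.and (Filter.eventually_ge_atTop 1))))
  refine ⟨n0, fun n hn => ?_⟩
  obtain ⟨h1, h2, h3, hn1⟩ := hn0 n hn
  obtain ⟨k, hrk, hkn, hfm, hks⟩ := param r hr ε hε0 n hn1 B hB h1 h2 h3
  refine ⟨cliqueProp n r k, cliqueProp_invariant n r k, cliqueProp_increasing n r k,
    cliqueProp_nontrivial n r k hrk hkn, ?_⟩
  refine le_trans ?_ (width_cliqueProp_ge n r k hrk hkn ε hε0 hε hfm)
  set x := Real.log n with hx
  have hxpos : 0 < x := by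
    by_contra hcon
    push Not at hcon
    have : B * x ≤ 0 := mul_nonpos_of_nonneg_of_nonpos hBpos.le hcon
    have h0 : (0:ℝ) ≤ ((2 * r : ℕ) : ℝ) ^ s := by positivity
    linarith
  have hkpos : (0:ℝ) ≤ k := by positivity
  -- upper bound for the binomial coefficient
  have hch : (k.choose r : ℝ) ≤ A * x ^ q := by
    calc (k.choose r : ℝ) ≤ (k:ℝ) ^ r := by exact_mod_cast Nat.choose_le_pow k r
      _ = ((k:ℝ) ^ s) ^ q := by
          rw [← Real.rpow_natCast (k:ℝ) s, ← Real.rpow_mul hkpos, hq,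
            mul_div_cancel₀ _ hspos.ne', Real.rpow_natCast]
      _ ≤ (2 ^ s * B * x) ^ q := Real.rpow_le_rpow (by positivity) hks hqpos.le
      _ = A * x ^ q := by rw [hA, Real.mul_rpow (by positivity) hxpos.le]
  have hexp : -(r:ℝ) / ((r:ℝ) - 1) = -q := by
    rw [hq, hscast, neg_div]
  rw [hexp, Real.rpow_neg hxpos.le]
  have hxq : 0 < x ^ q := Real.rpow_pos_of_pos hxpos q
  have hchpos : (0:ℝ) < (k.choose r : ℝ) := by exact_mod_cast Nat.choose_pos hrk
  calc L / (2 * A) * (x ^ q)⁻¹ = L / (2 * (A * x ^ q)) := by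
        field_simp
    _ ≤ L / (2 * (k.choose r : ℝ)) := by
        apply div_le_div_of_nonneg_left hLpos.le (by positivity)
        linarith

end Vale.Agent.Results.P063.HypergraphWidthLower
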